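import Vale.Agent.P196.Cover

namespace Vale.Agent.Results.P196.NoSmallActions

open Vale.Agent.P196

theorem result (G : Type) [Group G] [Infinite G] [IsSimpleGroup G]
    [Group.IsFinitelyPresented G] :
    (∀ (X : Type) [MulAction G X] (b : G → ℕ),
      (∀ E : Finset X, ∃ F : Finset X, E ⊆ F ∧ ∀ g : G, {y | y ∈ F ∧ g • y ∉ F}.ncard ≤ b g) →
      ∀ (g : G) (x : X), g • x = x) ∧
    (Amenable G →
      (∀ (X V : Type) [MulAction G X] (p : X → V) (τ : V → V) (c d : ℕ),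
        (∀ v, (p ⁻¹' {v}).encard ≤ c) → (∀ v, (τ ⁻¹' {v}).encard ≤ d) →
        (∀ g : G, ∃ D : ℕ, ∀ x : X, ∃ i ≤ D, ∃ j ≤ D, τ^[i] (p x) = τ^[j] (p (g • x))) →
        ∀ x : X, (∀ m n : ℕ, τ^[m] (p x) = τ^[n] (p x) → m = n) → ∀ g : G, g • x = x) ∧
      (∀ (d : ℕ) (ρ : G →* Equiv.Perm (ℕ → Fin d)), (∀ g, PrefixReplacement (ρ g)) → ρ = 1)) := by
  refine ⟨?_, fun hG => ⟨?_, ?_⟩⟩
  · intro X _ b hb g x
    exact bounded_boundary b hb x g
  · intro X V _ p τ c d hc hd hdisp x hx g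
    exact cover_fixed hG p τ c d hc hd hdisp x hx g
  · intro d ρ hρ
    ext1 g
    ext1 x
    exact thompson_trivial hG d ρ hρ g x

end Vale.Agent.Results.P196.NoSmallActions
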